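import Vale.Agent.P129.Final

namespace Vale.Agent.Results.P129.Measure

open Vale.Agent.P129

universe u v

theorem result (𝕜 : Type v) [RCLike 𝕜] :
    (LebesgueExtends →
      ∀ (X : Type u) [NormedAddCommGroup X] [NormedSpace 𝕜 X] [CompleteSpace X],
        ¬ FiniteDimensional 𝕜 X → HasSepQuot 𝕜 X) ∧
    (∀ (X : Type u) [NormedAddCommGroup X] [NormedSpace 𝕜 X] [CompleteSpace X],
        ¬ FiniteDimensional 𝕜 X →
        (∃ S : Set X, Dense S ∧ Cardinal.mk S < Cardinal.lift.{u} covNull) → HasSepQuot 𝕜 X) :=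
  ⟨fun h _ _ _ _ hX => sq_of_extends h hX,
    fun _ _ _ _ hX ⟨S, hS, hc⟩ => sq_of_lt_cov hX S hS hc⟩

end Vale.Agent.Results.P129.Measure
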